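import Mathlib

open MeasureTheory

namespace Vale.Agent.P114

variable {Λ : Type} [Fintype Λ]

/-- The affine map (slope, translation) of the word `w`: the composition of the maps
`x ↦ r i * x + t i` in the order of the letters. -/
def aff (r t : Λ → ℝ) : (n : ℕ) → (Fin n → Λ) → ℝ × ℝ
  | 0, _ => (1, 0)
  | n + 1, w => (r (w 0) * (aff r t n (Fin.tail w)).1,
      r (w 0) * (aff r t n (Fin.tail w)).2 + t (w 0))

/-- The probability that the random composition of `n` maps is the affine map `g`. -/
noncomputable def prob (r t p : Λ → ℝ) (n : ℕ) (g : ℝ × ℝ) : ℝ :=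
  by classical exact ∑ w : Fin n → Λ, if aff r t n w = g then ∏ k, p (w k) else 0

/-- The Shannon entropy, in bits, of the random composition of `n` maps. -/
noncomputable def entropy (r t p : Λ → ℝ) (n : ℕ) : ℝ :=
  by classical exact
    (∑ g ∈ Finset.univ.image (aff r t n), Real.negMulLog (prob r t p n g)) / Real.log 2

/-- The random-walk entropy rate, the infimum over `n ≥ 1` of the entropies divided by `n`. -/
noncomputable def hRW (r t p : Λ → ℝ) : ℝ := ⨅ n : ℕ, entropy r t p (n + 1) / (n + 1)

/-- The Lyapunov exponent. -/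
noncomputable def chi (r p : Λ → ℝ) : ℝ := -∑ i, p i * Real.logb 2 |r i|

/-- `μ` is a self-similar measure: a Borel probability measure with `μ = ∑ i, p i (φ i)_* μ`. -/
def IsSelfSimilar (r t p : Λ → ℝ) (μ : Measure ℝ) : Prop :=
  IsProbabilityMeasure μ ∧
    μ = ∑ i, ENNReal.ofReal (p i) • μ.map (fun x => r i * x + t i)

/-- The lower Hausdorff dimension of `μ`. -/
noncomputable def lowerDim (μ : Measure ℝ) : ENNReal :=
  ⨅ (E : Set ℝ) (_ : MeasurableSet E) (_ : 0 < μ E), dimH E

end Vale.Agent.P114
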