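import Vale.Agent.P114.Defs

open MeasureTheory Set

namespace Vale.Agent.P114.Gen

open Vale.Agent.P114

/-- The half-open arcs of length `δ` modulo one, in the two orientations. -/
def per (σ : ℤ) (δ x : ℝ) : Set ℝ := {y | Int.fract ((σ : ℝ) * (y - x)) < δ}

theorem per_meas (σ : ℤ) (δ x : ℝ) : MeasurableSet (per σ δ x) := by
  have : Measurable fun y : ℝ => Int.fract ((σ : ℝ) * (y - x)) :=
    measurable_fract.comp ((measurable_id.sub_const x).const_mul _)
  exact this measurableSet_Iio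

theorem step_sub {N : ℕ} (hN : 2 ≤ N) {σ ε : ℤ} (hε : ε * ε = 1) (da : ℤ) (sj x δ : ℝ)
    (hδ : N * δ ≤ 1) :
    (fun y : ℝ => (ε / N : ℝ) * y + (da + sj) / N) ⁻¹' per σ δ x ⊆
      per (σ * ε) (N * δ) (ε * (N * x - sj)) := by
  have hN0 : (0 : ℝ) < N := by positivity
  have hε' : (ε : ℝ) * ε = 1 := by exact_mod_cast hε
  intro y hy
  change Int.fract ((σ : ℝ) * ((ε / N : ℝ) * y + (da + sj) / N - x)) < δ at hy
  show Int.fract (((σ * ε : ℤ) : ℝ) * (y - ε * (N * x - sj))) < N * δ
  set z : ℝ := (σ : ℝ) * ((ε / N : ℝ) * y + (da + sj) / N - x) with hz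
  have h1 : ((σ * ε : ℤ) : ℝ) * (y - ε * (N * x - sj)) =
      N * Int.fract z + ((N * ⌊z⌋ - σ * da : ℤ) : ℝ) := by
    have h3 : (N : ℝ) * z = σ * (ε * y + da + sj - N * x) := by rw [hz]; field_simp; ring
    have h2 : (N : ℝ) * z = N * Int.fract z + N * ⌊z⌋ := by
      rw [← mul_add, Int.fract_add_floor]
    push_cast
    have h4 : (σ : ℝ) * ε * (y - ε * (N * x - sj)) = σ * (ε * y) - σ * (N * x - sj) := by
      linear_combination (-(σ : ℝ) * (N * x - sj)) * hε'
    rw [h4]
    linarith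
  have h3 : N * Int.fract z < N * δ := mul_lt_mul_of_pos_left hy hN0
  rw [h1, Int.fract_add_intCast, Int.fract_eq_self.2 ⟨by
    have := Int.fract_nonneg z
    positivity, h3.trans_le hδ⟩]
  exact h3

theorem step_disj {N : ℕ} (hN : 2 ≤ N) {σ ε : ℤ} (hσ : σ * σ = 1) {d : Fin N → ℤ}
    (hd : ∀ a b, (N : ℤ) ∣ d a - d b → a = b)
    (sj x δ : ℝ) (hδ : N * δ ≤ 1) {a b : Fin N} (hab : a ≠ b) :
    Disjoint ((fun y : ℝ => (ε / N : ℝ) * y + (d a + sj) / N) ⁻¹' per σ δ x)
      ((fun y : ℝ => (ε / N : ℝ) * y + (d b + sj) / N) ⁻¹' per σ δ x) := by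
  have hN0 : (0 : ℝ) < N := by positivity
  rw [Set.disjoint_left]
  intro y ha hb
  change Int.fract ((σ : ℝ) * ((ε / N : ℝ) * y + (d a + sj) / N - x)) < δ at ha
  change Int.fract ((σ : ℝ) * ((ε / N : ℝ) * y + (d b + sj) / N - x)) < δ at hb
  set z : ℝ := (σ : ℝ) * ((ε / N : ℝ) * y + (d a + sj) / N - x) with hz
  set z' : ℝ := (σ : ℝ) * ((ε / N : ℝ) * y + (d b + sj) / N - x) with hz'
  have e1 : (N : ℝ) * (Int.fract z - Int.fract z') =
      ((σ * (d a - d b) - N * (⌊z⌋ - ⌊z'⌋) : ℤ) : ℝ) := by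
    have h1 : z - z' = σ * (d a - d b) / N := by rw [hz, hz']; ring
    have h2 : Int.fract z - Int.fract z' = (z - z') - (⌊z⌋ - ⌊z'⌋) := by
      rw [← Int.self_sub_floor, ← Int.self_sub_floor]; ring
    rw [h2, h1]
    push_cast
    field_simp
  have hlt : |((σ * (d a - d b) - N * (⌊z⌋ - ⌊z'⌋) : ℤ) : ℝ)| < 1 := by
    rw [← e1, abs_mul, abs_of_pos hN0]
    have h3 : |Int.fract z - Int.fract z'| < δ := by
      rw [abs_lt]
      have := Int.fract_nonneg z
      have := Int.fract_nonneg z'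
      constructor <;> linarith
    calc (N : ℝ) * |Int.fract z - Int.fract z'| < N * δ := by gcongr
      _ ≤ 1 := hδ
  have h0 : σ * (d a - d b) - N * (⌊z⌋ - ⌊z'⌋) = 0 := by
    rw [← Int.cast_abs] at hlt
    have : |σ * (d a - d b) - N * (⌊z⌋ - ⌊z'⌋)| < 1 := by exact_mod_cast hlt
    exact Int.abs_lt_one_iff.1 this
  refine hab (hd a b ⟨σ * (⌊z⌋ - ⌊z'⌋), ?_⟩)
  linear_combination σ * h0 - (d a - d b) * hσ

/-- The data of a family: for every `j` the maps `x ↦ (ε j * x + d j a + s j) / N j`, with the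
integers `d j a` a complete residue system modulo `N j`. -/
structure IsFamily {J : Type} [Fintype J] (N : J → ℕ) (ε : J → ℤ) (d : ∀ j, Fin (N j) → ℤ)
    (s q : J → ℝ) (r t p : (Σ j, Fin (N j)) → ℝ) : Prop where
  two_le : ∀ j, 2 ≤ N j
  sign : ∀ j, ε j * ε j = 1
  inj : ∀ j a b, (N j : ℤ) ∣ d j a - d j b → a = b
  pos : ∀ j, 0 < q j
  sum : ∑ j, q j = 1
  slope : ∀ i, r i = ε i.1 / N i.1
  trans : ∀ i, t i = (d i.1 i.2 + s i.1) / N i.1
  weight : ∀ i, p i = q i.1 / N i.1

variable {J : Type} [Fintype J] {N : J → ℕ} {ε : J → ℤ} {d : ∀ j, Fin (N j) → ℤ}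
    {s q : J → ℝ} {r t p : (Σ j, Fin (N j)) → ℝ}

theorem mu_per (h : IsFamily N ε d s q r t p) {C : ℝ} (hC1 : 1 ≤ C) (hC : ∀ j, (N j : ℝ) ≤ C)
    {μ : Measure ℝ} (hμ : IsSelfSimilar r t p μ) (k : ℕ) :
    ∀ (δ : ℝ), 1 ≤ δ * 2 ^ k → ∀ (σ : ℤ), σ * σ = 1 → ∀ x : ℝ,
      μ (per σ δ x) ≤ ENNReal.ofReal (C * δ) := by
  have := hμ.1
  have hbig : ∀ δ : ℝ, 1 ≤ C * δ → ∀ σ x, μ (per σ δ x) ≤ ENNReal.ofReal (C * δ) := by
    intro δ hδ σ x
    calc μ (per σ δ x) ≤ 1 := prob_le_one
      _ = ENNReal.ofReal 1 := ENNReal.ofReal_one.symm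
      _ ≤ _ := ENNReal.ofReal_le_ofReal hδ
  induction k with
  | zero =>
    intro δ hδ σ _ x
    refine hbig δ ?_ σ x
    simp only [pow_zero, mul_one] at hδ
    nlinarith
  | succ k ih =>
    intro δ hδ σ hσ x
    by_cases hb : 1 ≤ C * δ
    · exact hbig δ hb σ x
    have hδ0 : 0 < δ := by
      by_contra hneg
      have : δ * 2 ^ (k + 1) ≤ 0 := mul_nonpos_of_nonpos_of_nonneg (not_lt.1 hneg) (by positivity)
      linarith
    have hNδ : ∀ j, (N j : ℝ) * δ ≤ 1 := fun j => by
      have := mul_le_mul_of_nonneg_right (hC j) hδ0.le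
      linarith [not_le.1 hb]
    have h1 : μ (per σ δ x) = ∑ j, ∑ a : Fin (N j), ENNReal.ofReal (q j / N j) *
        μ ((fun y : ℝ => (ε j / N j : ℝ) * y + (d j a + s j) / N j) ⁻¹' per σ δ x) := by
      conv_lhs => rw [hμ.2]
      rw [Measure.finsetSum_apply, Fintype.sum_sigma]
      refine Finset.sum_congr rfl fun j _ => Finset.sum_congr rfl fun a _ => ?_
      rw [Measure.smul_apply, smul_eq_mul, Measure.map_apply (by fun_prop) (per_meas _ _ _),
        h.slope, h.trans, h.weight]
    rw [h1]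
    have h2 : ∀ j, ∑ a : Fin (N j), ENNReal.ofReal (q j / N j) *
        μ ((fun y : ℝ => (ε j / N j : ℝ) * y + (d j a + s j) / N j) ⁻¹' per σ δ x) ≤
        ENNReal.ofReal (q j * (C * δ)) := by
      intro j
      have hN0 : (0 : ℝ) < N j := by
        have := h.two_le j
        positivity
      have hN2 : (2 : ℝ) ≤ N j := by exact_mod_cast h.two_le j
      have hq := h.pos j
      rw [← Finset.mul_sum, ← measure_biUnion_finset
        (fun a _ b _ hab => step_disj (h.two_le j) hσ (h.inj j) (s j) x δ (hNδ j) hab)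
        (fun a _ => (per_meas _ _ _).preimage (by fun_prop))]
      calc ENNReal.ofReal (q j / N j) * μ (⋃ a ∈ Finset.univ,
            (fun y : ℝ => (ε j / N j : ℝ) * y + (d j a + s j) / N j) ⁻¹' per σ δ x)
          ≤ ENNReal.ofReal (q j / N j) * μ (per (σ * ε j) (N j * δ) (ε j * (N j * x - s j))) := by
            gcongr
            exact iUnion₂_subset fun a _ => step_sub (h.two_le j) (h.sign j) _ (s j) x δ (hNδ j)
        _ ≤ ENNReal.ofReal (q j / N j) * ENNReal.ofReal (C * (N j * δ)) := by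
            gcongr
            refine ih (N j * δ) ?_ (σ * ε j) ?_ _
            · rw [pow_succ] at hδ
              have : δ * 2 ≤ N j * δ := by nlinarith
              calc (1 : ℝ) ≤ δ * (2 ^ k * 2) := hδ
                _ = (δ * 2) * 2 ^ k := by ring
                _ ≤ N j * δ * 2 ^ k := by gcongr
            · linear_combination (ε j * ε j) * hσ + h.sign j
        _ = ENNReal.ofReal (q j * (C * δ)) := by
            rw [← ENNReal.ofReal_mul (by positivity)]
            congr 1
            field_simp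
    refine (Finset.sum_le_sum fun j _ => h2 j).trans ?_
    rw [← ENNReal.ofReal_sum_of_nonneg (fun j _ => by have := h.pos j; positivity),
      ← Finset.sum_mul, h.sum, one_mul]

theorem mu_small (h : IsFamily N ε d s q r t p) {C : ℝ} (hC1 : 1 ≤ C) (hC : ∀ j, (N j : ℝ) ≤ C)
    {μ : Measure ℝ} (hμ : IsSelfSimilar r t p μ) (E : Set ℝ)
    (hE : Metric.ediam E ≤ ENNReal.ofReal (1 / 4)) :
    μ E ≤ ENNReal.ofReal (2 * C) * Metric.ediam E := by
  rcases E.eq_empty_or_nonempty with rfl | hne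
  · simp
  have htop : Metric.ediam E ≠ ⊤ := ne_top_of_le_ne_top ENNReal.ofReal_ne_top hE
  set δ : ℝ := (Metric.ediam E).toReal with hδ
  have hδ0 : 0 ≤ δ := ENNReal.toReal_nonneg
  have hδ1 : δ ≤ 1 / 4 := by
    have := ENNReal.toReal_mono ENNReal.ofReal_ne_top hE
    rwa [ENNReal.toReal_ofReal (by norm_num)] at this
  have hdist : ∀ y ∈ E, ∀ z ∈ E, y - z ≤ δ := by
    intro y hy z hz
    have h1 : edist y z ≤ Metric.ediam E := Metric.edist_le_ediam_of_mem hy hz
    have h2 : dist y z ≤ δ := by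
      rw [dist_edist]
      exact ENNReal.toReal_mono htop h1
    rw [Real.dist_eq] at h2
    exact (le_abs_self _).trans h2
  obtain ⟨z0, hz0⟩ := hne
  have hbdd : BddBelow E := ⟨z0 - δ, fun y hy => by linarith [hdist z0 hz0 y hy]⟩
  have hb : ∀ η : ℝ, δ < η → η ≤ 1 → μ E ≤ ENNReal.ofReal (C * η) := by
    intro η hη hη1
    have hη0 : 0 < η := lt_of_le_of_lt hδ0 hη
    obtain ⟨k, hk⟩ := pow_unbounded_of_one_lt (1 / η) (by norm_num : (1 : ℝ) < 2)
    have hk' : 1 ≤ η * 2 ^ k := by
      rw [div_lt_iff₀ hη0] at hk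
      linarith
    refine (measure_mono ?_).trans (mu_per h hC1 hC hμ k η hk' 1 (by norm_num) (sInf E))
    intro y hy
    have h1 : 0 ≤ y - sInf E := sub_nonneg.2 (csInf_le hbdd hy)
    have h2 : y - sInf E ≤ δ := by
      have : y - δ ≤ sInf E := le_csInf ⟨z0, hz0⟩ fun z hz => by linarith [hdist y hy z hz]
      linarith
    show Int.fract (((1 : ℤ) : ℝ) * (y - sInf E)) < η
    rw [Int.cast_one, one_mul, Int.fract_eq_self.2 ⟨h1, by linarith⟩]
    linarith
  rcases hδ0.eq_or_lt with h0 | hpos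
  · have h1 : μ E = 0 := by
      have ht : Filter.Tendsto (fun n : ℕ => ENNReal.ofReal (C * (1 / ((n : ℝ) + 1))))
          Filter.atTop (nhds 0) := by
        have := ENNReal.tendsto_ofReal ((tendsto_one_div_add_atTop_nhds_zero_nat (𝕜 := ℝ)).const_mul C)
        simpa using this
      refine le_antisymm (ge_of_tendsto' ht fun n => hb _ ?_ ?_) bot_le
      · rw [← h0]; positivity
      · rw [div_le_one (by positivity)]
        linarith [(Nat.cast_nonneg n : (0 : ℝ) ≤ n)]
    rw [h1]; exact bot_le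
  · refine (hb (2 * δ) (by linarith) (by linarith)).trans ?_
    have h3 : C * (2 * δ) = 2 * C * δ := by ring
    rw [h3, ENNReal.ofReal_mul (by positivity), hδ, ENNReal.ofReal_toReal htop]

theorem lowerDim_eq (h : IsFamily N ε d s q r t p)
    {μ : Measure ℝ} (hμ : IsSelfSimilar r t p μ) : lowerDim μ = 1 := by
  have := hμ.1
  obtain ⟨C, hC1, hC⟩ : ∃ C : ℝ, 1 ≤ C ∧ ∀ j, (N j : ℝ) ≤ C := by
    refine ⟨1 + ∑ j, (N j : ℝ), ?_, fun j => ?_⟩
    · have : (0 : ℝ) ≤ ∑ j, (N j : ℝ) := Finset.sum_nonneg fun j _ => Nat.cast_nonneg _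
      linarith
    · have := Finset.single_le_sum (f := fun j => (N j : ℝ)) (fun j _ => Nat.cast_nonneg _)
        (Finset.mem_univ j)
      linarith
  refine le_antisymm ?_ ?_
  · unfold lowerDim
    refine (iInf_le _ univ).trans ((iInf_le _ MeasurableSet.univ).trans
      ((iInf_le _ (by simp)).trans ?_))
    rw [Real.dimH_univ]
  · unfold lowerDim
    refine le_iInf fun E => le_iInf fun _ => le_iInf fun hE => ?_
    have hc : ENNReal.ofReal (2 * C) ≠ 0 := by
      rw [Ne, ENNReal.ofReal_eq_zero, not_le]; positivity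
    have h := Measure.le_hausdorffMeasure 1 ((ENNReal.ofReal (2 * C))⁻¹ • μ)
      (ENNReal.ofReal (1 / 4)) (by rw [ENNReal.ofReal_pos]; norm_num) (fun A hA => by
        rw [Measure.smul_apply, smul_eq_mul, ENNReal.rpow_one]
        rw [ENNReal.inv_mul_le_iff hc ENNReal.ofReal_ne_top]
        exact mu_small h hC1 hC hμ A hA)
    have h1 : Measure.hausdorffMeasure ((1 : NNReal) : ℝ) E ≠ 0 := by
      have h2 := h E
      rw [Measure.smul_apply, smul_eq_mul] at h2
      have h3 : (ENNReal.ofReal (2 * C))⁻¹ * μ E ≠ 0 :=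
        mul_ne_zero (ENNReal.inv_ne_zero.2 ENNReal.ofReal_ne_top) hE.ne'
      intro h4
      apply h3
      rw [NNReal.coe_one] at h4
      exact le_antisymm (h2.trans h4.le) bot_le
    have := le_dimH_of_hausdorffMeasure_ne_zero h1
    simpa using this

/-! ## The entropy -/

theorem p_nonneg (h : IsFamily N ε d s q r t p) (i : Σ j, Fin (N j)) : 0 ≤ p i := by
  have := (h.pos i.1).le
  rw [h.weight]
  positivity

theorem sum_p (h : IsFamily N ε d s q r t p) : ∑ i, p i = 1 := by
  rw [Fintype.sum_sigma, ← h.sum]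
  refine Finset.sum_congr rfl fun j _ => ?_
  have hN0 : (N j : ℝ) ≠ 0 := by
    have := h.two_le j
    positivity
  simp only [h.weight]
  rw [Finset.sum_const]
  simp
  field_simp

/-- The sum over the words of slope `m` with translation in `x + ℤ`. -/
noncomputable def cnt (r t p : (Σ j, Fin (N j)) → ℝ) (n : ℕ) (m x : ℝ) : ℝ :=
  by classical exact ∑ w : Fin n → Σ j, Fin (N j),
    if (aff r t n w).1 = m ∧ ∃ k : ℤ, (aff r t n w).2 = x + k then ∏ k, p (w k) else 0

theorem cnt_le (h : IsFamily N ε d s q r t p) (n : ℕ) : ∀ m x : ℝ, cnt r t p n m x ≤ |m| := by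
  classical
  induction n with
  | zero =>
    intro m x
    unfold cnt
    rw [Fintype.sum_unique]
    split_ifs with h0
    · have : m = 1 := h0.1.symm
      simp [this]
    · exact abs_nonneg m
  | succ n ih =>
    intro m x
    have hr0 : ∀ i, r i ≠ 0 := by
      intro i
      rw [h.slope]
      have h1 : (ε i.1 : ℝ) ≠ 0 := by
        intro h0
        have := h.sign i.1
        have h2 : ε i.1 = 0 := by exact_mod_cast h0
        rw [h2] at this
        norm_num at this
      have hN0 : (N i.1 : ℝ) ≠ 0 := by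
        have := h.two_le i.1
        positivity
      positivity
    have e1 : cnt r t p (n + 1) m x = ∑ j, ∑ w : Fin n → Σ j, Fin (N j), ∑ a : Fin (N j),
        if (r ⟨j, a⟩ * (aff r t n w).1 = m ∧ ∃ k : ℤ, r ⟨j, a⟩ * (aff r t n w).2 + t ⟨j, a⟩ = x + k)
          then p ⟨j, a⟩ * ∏ k, p (w k) else 0 := by
      unfold cnt
      rw [← (Fin.consEquiv (fun _ : Fin (n + 1) => Σ j, Fin (N j))).sum_comp,
        Fintype.sum_prod_type, Fintype.sum_sigma]
      refine Finset.sum_congr rfl fun j _ => ?_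
      rw [Finset.sum_comm]
      refine Finset.sum_congr rfl fun w _ => Finset.sum_congr rfl fun a _ => ?_
      have h1 : (Fin.consEquiv (fun _ : Fin (n + 1) => Σ j, Fin (N j))) (⟨j, a⟩, w) =
        Fin.cons ⟨j, a⟩ w := rfl
      rw [h1, Fin.prod_univ_succ]
      simp only [Fin.cons_zero, Fin.cons_succ, aff, Fin.tail_cons]
    rw [e1]
    have h2 : ∀ j, (∑ w : Fin n → Σ j, Fin (N j), ∑ a : Fin (N j),
        if (r ⟨j, a⟩ * (aff r t n w).1 = m ∧ ∃ k : ℤ, r ⟨j, a⟩ * (aff r t n w).2 + t ⟨j, a⟩ = x + k)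
          then p ⟨j, a⟩ * ∏ k, p (w k) else 0) ≤
        q j / N j * cnt r t p n (m * (ε j * N j)) (ε j * (N j * x - s j)) := by
      intro j
      have hN0 : (0 : ℝ) < N j := by
        have := h.two_le j
        positivity
      have hε' : (ε j : ℝ) * ε j = 1 := by exact_mod_cast h.sign j
      unfold cnt
      rw [Finset.mul_sum]
      refine Finset.sum_le_sum fun w _ => ?_
      have hP : 0 ≤ ∏ k, p (w k) := Finset.prod_nonneg fun k _ => p_nonneg h _
      have hq := h.pos j
      have key : ∀ a : Fin (N j), (r ⟨j, a⟩ * (aff r t n w).1 = m ∧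
          ∃ k : ℤ, r ⟨j, a⟩ * (aff r t n w).2 + t ⟨j, a⟩ = x + k) →
          ((aff r t n w).1 = m * (ε j * N j) ∧
            ∃ k : ℤ, (aff r t n w).2 = ε j * (N j * x - s j) + k) := by
        rintro a ⟨h3, k, h4⟩
        rw [h.slope] at h3 h4
        rw [h.trans] at h4
        simp only at h3 h4
        refine ⟨?_, ε j * (N j * k - d j a), ?_⟩
        · rw [← h3]
          field_simp
          linear_combination (-(aff r t n w).1) * hε'
        · field_simp at h4
          push_cast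
          linear_combination (-((aff r t n w).2)) * hε' + ε j * h4
      have uniq : ∀ a b : Fin (N j), (r ⟨j, a⟩ * (aff r t n w).1 = m ∧
          ∃ k : ℤ, r ⟨j, a⟩ * (aff r t n w).2 + t ⟨j, a⟩ = x + k) →
          (r ⟨j, b⟩ * (aff r t n w).1 = m ∧
          ∃ k : ℤ, r ⟨j, b⟩ * (aff r t n w).2 + t ⟨j, b⟩ = x + k) → a = b := by
        rintro a b ⟨-, k, h4⟩ ⟨-, k', h4'⟩
        rw [h.slope, h.trans] at h4 h4'
        simp only at h4 h4'
        refine h.inj j a b ⟨k - k', ?_⟩
        field_simp at h4 h4'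
        have : ((d j a - d j b : ℤ) : ℝ) = ((N j * (k - k') : ℤ) : ℝ) := by
          push_cast
          linarith
        exact_mod_cast this
      by_cases hex : ∃ a : Fin (N j), (r ⟨j, a⟩ * (aff r t n w).1 = m ∧
          ∃ k : ℤ, r ⟨j, a⟩ * (aff r t n w).2 + t ⟨j, a⟩ = x + k)
      · obtain ⟨a, ha⟩ := hex
        rw [Finset.sum_eq_single a (fun b _ hb => if_neg fun hc => hb (uniq b a hc ha))
          (fun hn => absurd (Finset.mem_univ a) hn), if_pos ha, if_pos (key a ha), h.weight]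
      · push Not at hex
        rw [Finset.sum_eq_zero fun a _ => if_neg fun hc => hex a hc.1 hc.2.choose hc.2.choose_spec]
        split_ifs
        · positivity
        · simp
    refine (Finset.sum_le_sum fun j _ => h2 j).trans ?_
    calc ∑ j, q j / N j * cnt r t p n (m * (ε j * N j)) (ε j * (N j * x - s j))
        ≤ ∑ j, q j / N j * |m * (ε j * N j)| := by
          refine Finset.sum_le_sum fun j _ => ?_
          have hq := h.pos j
          gcongr
          exact ih _ _
      _ = ∑ j, q j * |m| := by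
          refine Finset.sum_congr rfl fun j _ => ?_
          have hN0 : (0 : ℝ) < N j := by
            have := h.two_le j
            positivity
          have hε1 : |(ε j : ℝ)| = 1 := by
            have h1 : |(ε j : ℝ)| * |(ε j : ℝ)| = 1 := by
              rw [← abs_mul]
              have : (ε j : ℝ) * ε j = 1 := by exact_mod_cast h.sign j
              rw [this, abs_one]
            nlinarith [abs_nonneg (ε j : ℝ)]
          rw [abs_mul, abs_mul, hε1, abs_of_pos hN0]
          field_simp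
      _ = |m| := by rw [← Finset.sum_mul, h.sum, one_mul]

theorem prob_le (h : IsFamily N ε d s q r t p) (n : ℕ) (g : ℝ × ℝ) : prob r t p n g ≤ |g.1| := by
  classical
  refine le_trans ?_ (cnt_le h n g.1 g.2)
  unfold prob cnt
  refine Finset.sum_le_sum fun w _ => ?_
  have hP : 0 ≤ ∏ k, p (w k) := Finset.prod_nonneg fun k _ => p_nonneg h _
  by_cases hw : aff r t n w = g
  · rw [if_pos hw, if_pos ⟨by rw [hw], 0, by rw [hw]; simp⟩]
  · rw [if_neg hw]
    split_ifs
    · exact hP
    · exact le_rfl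

theorem slope_ne (h : IsFamily N ε d s q r t p) (i : Σ j, Fin (N j)) : r i ≠ 0 := by
  rw [h.slope]
  have h1 : (ε i.1 : ℝ) ≠ 0 := by
    intro h0
    have := h.sign i.1
    have h2 : ε i.1 = 0 := by exact_mod_cast h0
    rw [h2] at this
    norm_num at this
  have hN0 : (N i.1 : ℝ) ≠ 0 := by
    have := h.two_le i.1
    positivity
  positivity

theorem aff_ne (h : IsFamily N ε d s q r t p) (n : ℕ) (w : Fin n → Σ j, Fin (N j)) :
    (aff r t n w).1 ≠ 0 := by
  induction n with
  | zero => simp [aff]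
  | succ n ih => exact mul_ne_zero (slope_ne h _) (ih _)

theorem sum_prod (h : IsFamily N ε d s q r t p) (n : ℕ) :
    ∑ w : Fin n → Σ j, Fin (N j), ∏ k, p (w k) = 1 := by
  rw [← Fintype.sum_pow, sum_p h, one_pow]

theorem mean (h : IsFamily N ε d s q r t p) (n : ℕ) :
    ∑ w : Fin n → Σ j, Fin (N j), (∏ k, p (w k)) * (-Real.log |(aff r t n w).1|) =
      n * ∑ i, p i * (-Real.log |r i|) := by
  induction n with
  | zero => simp [aff]
  | succ n ih =>
    rw [← (Fin.consEquiv (fun _ : Fin (n + 1) => Σ j, Fin (N j))).sum_comp,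
      Fintype.sum_prod_type]
    have h1 : ∀ (i : Σ j, Fin (N j)) (w : Fin n → Σ j, Fin (N j)),
        (∏ k, p ((Fin.consEquiv (fun _ : Fin (n + 1) => Σ j, Fin (N j))) (i, w) k)) *
          (-Real.log |(aff r t (n + 1)
            ((Fin.consEquiv (fun _ : Fin (n + 1) => Σ j, Fin (N j))) (i, w))).1|) =
        (∏ k, p (w k)) * (p i * (-Real.log |r i|)) +
          p i * ((∏ k, p (w k)) * (-Real.log |(aff r t n w).1|)) := by
      intro i w
      have h2 : (Fin.consEquiv (fun _ : Fin (n + 1) => Σ j, Fin (N j))) (i, w) =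
        Fin.cons i w := rfl
      rw [h2, Fin.prod_univ_succ]
      simp only [Fin.cons_zero, Fin.cons_succ, aff, Fin.tail_cons]
      rw [abs_mul, Real.log_mul (abs_ne_zero.2 (slope_ne h i)) (abs_ne_zero.2 (aff_ne h n w))]
      ring
    simp only [h1, Finset.sum_add_distrib]
    simp only [← Finset.sum_mul, ← Finset.mul_sum]
    rw [sum_prod h, ih, sum_p h]
    push_cast
    ring

theorem entropy_ge (h : IsFamily N ε d s q r t p) (n : ℕ) :
    n * chi r p ≤ entropy r t p n := by
  classical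
  have hl2 : 0 < Real.log 2 := Real.log_pos (by norm_num)
  have hp0 : ∀ g, 0 ≤ prob r t p n g := by
    intro g
    unfold prob
    refine Finset.sum_nonneg fun w _ => ?_
    split_ifs
    · exact Finset.prod_nonneg fun k _ => p_nonneg h _
    · exact le_rfl
  have hsum : ∑ g ∈ Finset.univ.image (aff r t n), prob r t p n g * (-Real.log |g.1|) =
      ∑ w : Fin n → Σ j, Fin (N j), (∏ k, p (w k)) * (-Real.log |(aff r t n w).1|) := by
    unfold prob
    simp only [Finset.sum_mul]
    rw [Finset.sum_comm]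
    refine Finset.sum_congr rfl fun w _ => ?_
    have h2 : ∀ g : ℝ × ℝ, (if aff r t n w = g then ∏ k, p (w k) else 0) * (-Real.log |g.1|) =
        if aff r t n w = g then (∏ k, p (w k)) * (-Real.log |g.1|) else 0 := by
      intro g; split_ifs <;> simp
    simp only [h2]
    rw [Finset.sum_ite_eq, if_pos (Finset.mem_image_of_mem _ (Finset.mem_univ w))]
  unfold entropy
  rw [le_div_iff₀ hl2]
  have h3 : (n : ℝ) * chi r p * Real.log 2 = n * ∑ i, p i * (-Real.log |r i|) := by
    unfold chi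
    rw [mul_assoc, neg_mul, Finset.sum_mul, ← Finset.sum_neg_distrib]
    congr 1
    refine Finset.sum_congr rfl fun i _ => ?_
    rw [Real.logb]
    field_simp
  rw [h3, ← mean h n, ← hsum]
  refine Finset.sum_le_sum fun g hg => ?_
  rw [Real.negMulLog]
  rcases (hp0 g).eq_or_lt with h4 | h4
  · rw [← h4]; simp
  · have h5 := Real.log_le_log h4 (prob_le h n g)
    nlinarith

theorem chi_pos (h : IsFamily N ε d s q r t p) : 0 < chi r p := by
  have h1 : (1 : ℝ) ≤ chi r p := by
    unfold chi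
    rw [← sum_p h, ← Finset.sum_neg_distrib]
    refine Finset.sum_le_sum fun i _ => ?_
    have hN2 : (2 : ℝ) ≤ N i.1 := by exact_mod_cast h.two_le i.1
    have hε1 : |(ε i.1 : ℝ)| = 1 := by
      have h1 : |(ε i.1 : ℝ)| * |(ε i.1 : ℝ)| = 1 := by
        rw [← abs_mul]
        have : (ε i.1 : ℝ) * ε i.1 = 1 := by exact_mod_cast h.sign i.1
        rw [this, abs_one]
      nlinarith [abs_nonneg (ε i.1 : ℝ)]
    have h2 : Real.logb 2 |r i| = -Real.logb 2 (N i.1) := by
      rw [h.slope, abs_div, hε1, abs_of_pos (by linarith : (0 : ℝ) < N i.1), one_div,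
        Real.logb_inv]
    have h3 : 1 ≤ Real.logb 2 (N i.1) := by
      rw [Real.le_logb_iff_rpow_le (by norm_num) (by linarith), Real.rpow_one]
      exact hN2
    rw [h2]
    nlinarith [p_nonneg h i]
  linarith

theorem ratio_ge (h : IsFamily N ε d s q r t p) : 1 ≤ hRW r t p / chi r p := by
  rw [le_div_iff₀ (chi_pos h), one_mul]
  unfold hRW
  refine le_ciInf fun n => ?_
  have := entropy_ge h (n + 1)
  push_cast at this
  rw [le_div_iff₀ (by positivity)]
  linarith

end Vale.Agent.P114.Gen
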