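import Vale.Agent.P114.Defs

open MeasureTheory Set

namespace Vale.Agent.P114

variable {N : ℕ} {K : Type} [Fintype K]

/-- Slopes. -/
noncomputable def rr (N : ℕ) (K : Type) : Fin N × K → ℝ := fun _ => 1 / N

/-- Translations. -/
noncomputable def tt (d : Fin N → ℤ) (s : K → ℝ) : Fin N × K → ℝ := fun i => (d i.1 + s i.2) / N

/-- Weights. -/
noncomputable def ww (N : ℕ) (q : K → ℝ) : Fin N × K → ℝ := fun i => q i.2 / N

/-- The points at distance less than `N^(-n)` to the right of `x + ℤ`. -/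
def per (N : ℕ) (n : ℕ) (x : ℝ) : Set ℝ := {y | Int.fract (y - x) < (1 / (N : ℝ)) ^ n}

theorem per_meas (n : ℕ) (x : ℝ) : MeasurableSet (per N n x) := by
  have : Measurable fun y : ℝ => Int.fract (y - x) :=
    measurable_fract.comp (measurable_id.sub_const x)
  exact this measurableSet_Iio

theorem step_sub (hN : 2 ≤ N) (d : Fin N → ℤ) (sj x : ℝ) (n : ℕ) (a : Fin N) :
    (fun y : ℝ => (1 / N : ℝ) * y + (d a + sj) / N) ⁻¹' per N (n + 1) x ⊆ per N n (N * x - sj) := by
  have hN0 : (0 : ℝ) < N := by positivity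
  intro y hy
  simp only [per, mem_preimage, mem_ofPred_eq] at hy ⊢
  set z : ℝ := (1 / N : ℝ) * y + (d a + sj) / N - x with hz
  have h1 : y - (N * x - sj) = N * Int.fract z + ((N * ⌊z⌋ - d a : ℤ) : ℝ) := by
    have : (N : ℝ) * z = y + d a + sj - N * x := by rw [hz]; field_simp; ring
    have h2 : (N : ℝ) * z = N * Int.fract z + N * ⌊z⌋ := by
      rw [← mul_add, Int.fract_add_floor]
    push_cast
    linarith
  have hp : (1 / (N : ℝ)) ^ (n + 1) * N = (1 / (N : ℝ)) ^ n := by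
    rw [pow_succ]; field_simp
  have h3 : N * Int.fract z < (1 / (N : ℝ)) ^ n := by
    rw [← hp, mul_comm]
    exact mul_lt_mul_of_pos_right hy hN0
  have hle : (1 / (N : ℝ)) ^ n ≤ 1 := by
    apply pow_le_one₀ (by positivity)
    rw [div_le_one hN0]
    exact_mod_cast (by omega : 1 ≤ N)
  rw [h1, Int.fract_add_intCast, Int.fract_eq_self.2 ⟨by
    have := Int.fract_nonneg z
    positivity, h3.trans_le hle⟩]
  exact h3

theorem step_disj (hN : 2 ≤ N) {d : Fin N → ℤ} (hd : ∀ a b, (N : ℤ) ∣ d a - d b → a = b)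
    (sj x : ℝ) (n : ℕ) {a b : Fin N} (hab : a ≠ b) :
    Disjoint ((fun y : ℝ => (1 / N : ℝ) * y + (d a + sj) / N) ⁻¹' per N (n + 1) x)
      ((fun y : ℝ => (1 / N : ℝ) * y + (d b + sj) / N) ⁻¹' per N (n + 1) x) := by
  have hN0 : (0 : ℝ) < N := by positivity
  rw [Set.disjoint_left]
  intro y ha hb
  simp only [per, mem_preimage, mem_ofPred_eq] at ha hb
  set z : ℝ := (1 / N : ℝ) * y + (d a + sj) / N - x with hz
  set z' : ℝ := (1 / N : ℝ) * y + (d b + sj) / N - x with hz'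
  have hle : (1 / (N : ℝ)) ^ (n + 1) ≤ 1 / N := by
    rw [pow_succ]
    have : (1 / (N : ℝ)) ^ n ≤ 1 := by
      apply pow_le_one₀ (by positivity)
      rw [div_le_one hN0]
      exact_mod_cast (by omega : 1 ≤ N)
    calc _ ≤ 1 * (1 / (N : ℝ)) := by gcongr
      _ = 1 / N := one_mul _
  have e1 : (N : ℝ) * (Int.fract z - Int.fract z') =
      ((d a - d b - N * (⌊z⌋ - ⌊z'⌋) : ℤ) : ℝ) := by
    have h1 : z - z' = (d a - d b) / N := by rw [hz, hz']; ring
    have h2 : Int.fract z - Int.fract z' = (z - z') - (⌊z⌋ - ⌊z'⌋) := by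
      rw [← Int.self_sub_floor, ← Int.self_sub_floor]; ring
    rw [h2, h1]
    push_cast
    field_simp
  have hlt : |((d a - d b - N * (⌊z⌋ - ⌊z'⌋) : ℤ) : ℝ)| < 1 := by
    rw [← e1, abs_mul, abs_of_pos hN0]
    have h3 : |Int.fract z - Int.fract z'| < 1 / N := by
      rw [abs_lt]
      have := Int.fract_nonneg z
      have := Int.fract_nonneg z'
      constructor <;> linarith
    calc (N : ℝ) * |Int.fract z - Int.fract z'| < N * (1 / N) := by gcongr
      _ = 1 := by field_simp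
  have h0 : d a - d b - N * (⌊z⌋ - ⌊z'⌋) = 0 := by
    rw [← Int.cast_abs] at hlt
    have : |d a - d b - N * (⌊z⌋ - ⌊z'⌋)| < 1 := by exact_mod_cast hlt
    exact Int.abs_lt_one_iff.1 this
  exact hab (hd a b ⟨⌊z⌋ - ⌊z'⌋, by linarith⟩)

theorem mu_per (hN : 2 ≤ N) {d : Fin N → ℤ} (hd : ∀ a b, (N : ℤ) ∣ d a - d b → a = b)
    (s q : K → ℝ) (hq : ∀ j, 0 ≤ q j) (hq1 : ∑ j, q j = 1) {ν : ℕ → Measure ℝ}
    (h0 : ν 0 univ ≤ 1)
    (hν : ∀ n E, MeasurableSet E → ν (n + 1) E = ∑ i : Fin N × K, ENNReal.ofReal (ww N q i) *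
      ν n ((fun x => rr N K i * x + tt d s i) ⁻¹' E)) (n : ℕ) (x : ℝ) :
    ν n (per N n x) ≤ ENNReal.ofReal ((1 / (N : ℝ)) ^ n) := by
  have hN0 : (0 : ℝ) < N := by positivity
  induction n generalizing x with
  | zero => simpa using (measure_mono (subset_univ _)).trans h0
  | succ n ih =>
    have h1 : ν (n + 1) (per N (n + 1) x) = ∑ j, ∑ a, ENNReal.ofReal (q j / N) *
        ν n ((fun y : ℝ => (1 / N : ℝ) * y + (d a + s j) / N) ⁻¹' per N (n + 1) x) := by
      rw [hν n _ (per_meas _ _), Fintype.sum_prod_type_right]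
      rfl
    rw [h1]
    have h2 : ∀ j, ∑ a, ENNReal.ofReal (q j / N) *
        ν n ((fun y : ℝ => (1 / N : ℝ) * y + (d a + s j) / N) ⁻¹' per N (n + 1) x) ≤
        ENNReal.ofReal (q j / N) * ENNReal.ofReal ((1 / (N : ℝ)) ^ n) := by
      intro j
      rw [← Finset.mul_sum]
      gcongr
      rw [← measure_biUnion_finset (fun a _ b _ hab => step_disj hN hd (s j) x n hab)
        (fun a _ => (per_meas _ _).preimage (by fun_prop))]
      refine (measure_mono ?_).trans (ih (N * x - s j))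
      exact iUnion₂_subset fun a _ => step_sub hN d (s j) x n a
    refine (Finset.sum_le_sum fun j _ => h2 j).trans ?_
    rw [← Finset.sum_mul, ← ENNReal.ofReal_sum_of_nonneg (fun j _ => by have := hq j; positivity),
      ← Finset.sum_div, hq1, ← ENNReal.ofReal_mul (by positivity)]
    apply ENNReal.ofReal_le_ofReal
    rw [pow_succ, mul_comm]

theorem mu_per' (hN : 2 ≤ N) {d : Fin N → ℤ} (hd : ∀ a b, (N : ℤ) ∣ d a - d b → a = b)
    (s q : K → ℝ) (hq : ∀ j, 0 ≤ q j) (hq1 : ∑ j, q j = 1) {μ : Measure ℝ}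
    (hμ : IsSelfSimilar (rr N K) (tt d s) (ww N q) μ) (n : ℕ) (x : ℝ) :
    μ (per N n x) ≤ ENNReal.ofReal ((1 / (N : ℝ)) ^ n) := by
  have := hμ.1
  refine mu_per hN hd s q hq hq1 (ν := fun _ => μ) prob_le_one (fun n E hE => ?_) n x
  show μ E = _
  conv_lhs => rw [hμ.2]
  rw [Measure.finsetSum_apply]
  refine Finset.sum_congr rfl fun i _ => ?_
  rw [Measure.smul_apply, smul_eq_mul, Measure.map_apply (by fun_prop) hE]

theorem mu_small (hN : 2 ≤ N) {d : Fin N → ℤ} (hd : ∀ a b, (N : ℤ) ∣ d a - d b → a = b)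
    (s q : K → ℝ) (hq : ∀ j, 0 ≤ q j) (hq1 : ∑ j, q j = 1) {μ : Measure ℝ}
    (hμ : IsSelfSimilar (rr N K) (tt d s) (ww N q) μ) (E : Set ℝ)
    (hE : Metric.ediam E ≤ ENNReal.ofReal (1 / 2)) :
    μ E ≤ ENNReal.ofReal (2 * N) * Metric.ediam E := by
  have hN0 : (0 : ℝ) < N := by positivity
  rcases E.eq_empty_or_nonempty with rfl | hne
  · simp
  have htop : Metric.ediam E ≠ ⊤ := ne_top_of_le_ne_top ENNReal.ofReal_ne_top hE
  set δ : ℝ := (Metric.ediam E).toReal with hδ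
  have hδ0 : 0 ≤ δ := ENNReal.toReal_nonneg
  have hδ1 : δ ≤ 1 / 2 := by
    have := ENNReal.toReal_mono ENNReal.ofReal_ne_top hE
    rwa [ENNReal.toReal_ofReal (by norm_num)] at this
  have hdist : ∀ y ∈ E, ∀ z ∈ E, y - z ≤ δ := by
    intro y hy z hz
    have h1 : edist y z ≤ Metric.ediam E := Metric.edist_le_ediam_of_mem hy hz
    have h2 : dist y z ≤ δ := by
      rw [dist_edist]
      exact ENNReal.toReal_mono htop h1
    rw [Real.dist_eq] at h2
    exact (le_abs_self _).trans h2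
  obtain ⟨z0, hz0⟩ := hne
  have hbdd : BddBelow E := ⟨z0 - δ, fun y hy => by linarith [hdist z0 hz0 y hy]⟩
  have hsub : ∀ n : ℕ, δ < (1 / (N : ℝ)) ^ n → E ⊆ per N n (sInf E) := by
    intro n hn y hy
    have h1 : 0 ≤ y - sInf E := sub_nonneg.2 (csInf_le hbdd hy)
    have h2 : y - sInf E ≤ δ := by
      have : y - δ ≤ sInf E := le_csInf ⟨z0, hz0⟩ fun z hz => by linarith [hdist y hy z hz]
      linarith
    show Int.fract (y - sInf E) < _
    rw [Int.fract_eq_self.2 ⟨h1, by linarith⟩]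
    linarith
  have hb : ∀ n : ℕ, δ < (1 / (N : ℝ)) ^ n → μ E ≤ ENNReal.ofReal ((1 / (N : ℝ)) ^ n) :=
    fun n hn => (measure_mono (hsub n hn)).trans (mu_per' hN hd s q hq hq1 hμ n _)
  have hy1 : 1 / (N : ℝ) < 1 := by
    rw [div_lt_one hN0]
    exact_mod_cast (by omega : 1 < N)
  rcases hδ0.eq_or_lt with h0 | hpos
  · have h1 : μ E = 0 := by
      refine le_antisymm (ge_of_tendsto' (x := Filter.atTop)
        (f := fun n : ℕ => ENNReal.ofReal ((1 / (N : ℝ)) ^ n)) ?_ fun n => hb n ?_) bot_le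
      · have := ENNReal.tendsto_ofReal (tendsto_pow_atTop_nhds_zero_of_lt_one
          (by positivity : (0 : ℝ) ≤ 1 / N) hy1)
        simpa using this
      · rw [← h0]; positivity
    rw [h1]; exact bot_le
  · obtain ⟨n, hn1, hn2⟩ := exists_nat_pow_near_of_lt_one (by positivity : 0 < 2 * δ)
      (by linarith : 2 * δ ≤ 1) (by positivity : 0 < 1 / (N : ℝ)) hy1
    refine (hb n (by linarith)).trans ?_
    have h1 : (1 / (N : ℝ)) ^ n ≤ 2 * N * δ := by
      have h2 : (1 / (N : ℝ)) ^ n = N * (1 / (N : ℝ)) ^ (n + 1) := by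
        rw [pow_succ]; field_simp
      rw [h2]
      nlinarith
    calc ENNReal.ofReal ((1 / (N : ℝ)) ^ n) ≤ ENNReal.ofReal (2 * N * δ) :=
          ENNReal.ofReal_le_ofReal h1
      _ = ENNReal.ofReal (2 * N) * Metric.ediam E := by
          rw [ENNReal.ofReal_mul (by positivity), hδ, ENNReal.ofReal_toReal htop]

theorem dim_ge (hN : 2 ≤ N) {d : Fin N → ℤ} (hd : ∀ a b, (N : ℤ) ∣ d a - d b → a = b)
    (s q : K → ℝ) (hq : ∀ j, 0 ≤ q j) (hq1 : ∑ j, q j = 1) {μ : Measure ℝ}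
    (hμ : IsSelfSimilar (rr N K) (tt d s) (ww N q) μ) {E : Set ℝ} (hE : 0 < μ E) :
    1 ≤ dimH E := by
  have hN0 : (0 : ℝ) < N := by positivity
  have hc : ENNReal.ofReal (2 * N) ≠ 0 := by
    rw [Ne, ENNReal.ofReal_eq_zero, not_le]; positivity
  have h := Measure.le_hausdorffMeasure 1 ((ENNReal.ofReal (2 * N))⁻¹ • μ)
    (ENNReal.ofReal (1 / 2)) (by rw [ENNReal.ofReal_pos]; norm_num) (fun A hA => by
      rw [Measure.smul_apply, smul_eq_mul, ENNReal.rpow_one]
      rw [ENNReal.inv_mul_le_iff hc ENNReal.ofReal_ne_top]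
      exact mu_small hN hd s q hq hq1 hμ A hA)
  have h1 : Measure.hausdorffMeasure ((1 : NNReal) : ℝ) E ≠ 0 := by
    have h2 := h E
    rw [Measure.smul_apply, smul_eq_mul] at h2
    have h3 : (ENNReal.ofReal (2 * N))⁻¹ * μ E ≠ 0 :=
      mul_ne_zero (ENNReal.inv_ne_zero.2 ENNReal.ofReal_ne_top) hE.ne'
    intro h4
    apply h3
    rw [NNReal.coe_one] at h4
    exact le_antisymm (h2.trans h4.le) bot_le
  have := le_dimH_of_hausdorffMeasure_ne_zero h1
  simpa using this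

theorem lowerDim_eq (hN : 2 ≤ N) {d : Fin N → ℤ} (hd : ∀ a b, (N : ℤ) ∣ d a - d b → a = b)
    (s q : K → ℝ) (hq : ∀ j, 0 ≤ q j) (hq1 : ∑ j, q j = 1) {μ : Measure ℝ}
    (hμ : IsSelfSimilar (rr N K) (tt d s) (ww N q) μ) : lowerDim μ = 1 := by
  have := hμ.1
  refine le_antisymm ?_ ?_
  · unfold lowerDim
    refine (iInf_le _ univ).trans ((iInf_le _ MeasurableSet.univ).trans
      ((iInf_le _ (by simp)).trans ?_))
    rw [Real.dimH_univ]
  · unfold lowerDim
    exact le_iInf fun E => le_iInf fun _ => le_iInf fun hE => dim_ge hN hd s q hq hq1 hμ hE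

/-! ## The entropy -/

/-- The law of the translation part. -/
noncomputable def law (d : Fin N → ℤ) (s q : K → ℝ) (n : ℕ) : Measure ℝ :=
  ∑ w : Fin n → Fin N × K, ENNReal.ofReal (∏ k, ww N q (w k)) •
    Measure.dirac (aff (rr N K) (tt d s) n w).2

theorem law_apply (d : Fin N → ℤ) (s q : K → ℝ) (n : ℕ) {E : Set ℝ} (hE : MeasurableSet E) :
    law d s q n E = ∑ w : Fin n → Fin N × K, ENNReal.ofReal (∏ k, ww N q (w k)) *
      E.indicator 1 (aff (rr N K) (tt d s) n w).2 := by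
  rw [law, Measure.finsetSum_apply]
  refine Finset.sum_congr rfl fun w _ => ?_
  rw [Measure.smul_apply, smul_eq_mul, Measure.dirac_apply' _ hE]

theorem ww_nonneg {q : K → ℝ} (hq : ∀ j, 0 ≤ q j) (i : Fin N × K) : 0 ≤ ww N q i := by
  have := hq i.2
  unfold ww
  positivity

theorem law_succ (d : Fin N → ℤ) (s : K → ℝ) {q : K → ℝ} (hq : ∀ j, 0 ≤ q j) (n : ℕ) (E : Set ℝ)
    (hE : MeasurableSet E) : law d s q (n + 1) E =
      ∑ i : Fin N × K, ENNReal.ofReal (ww N q i) *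
        law d s q n ((fun x => rr N K i * x + tt d s i) ⁻¹' E) := by
  rw [law_apply d s q (n + 1) hE, ← (Fin.consEquiv (fun _ : Fin (n + 1) => Fin N × K)).sum_comp,
    Fintype.sum_prod_type]
  refine Finset.sum_congr rfl fun i _ => ?_
  have hm : MeasurableSet ((fun x => rr N K i * x + tt d s i) ⁻¹' E) :=
    hE.preimage (by fun_prop)
  rw [law_apply d s q n hm, Finset.mul_sum]
  refine Finset.sum_congr rfl fun w _ => ?_
  have h1 : (Fin.consEquiv (fun _ : Fin (n + 1) => Fin N × K)) (i, w) = Fin.cons i w := rfl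
  rw [h1, Fin.prod_univ_succ]
  simp only [Fin.cons_zero, Fin.cons_succ, aff, Fin.tail_cons]
  rw [ENNReal.ofReal_mul (ww_nonneg hq i), mul_assoc]
  rfl

theorem prob_le (hN : 2 ≤ N) {d : Fin N → ℤ} (hd : ∀ a b, (N : ℤ) ∣ d a - d b → a = b)
    (s q : K → ℝ) (hq : ∀ j, 0 ≤ q j) (hq1 : ∑ j, q j = 1) (n : ℕ) (g : ℝ × ℝ) :
    prob (rr N K) (tt d s) (ww N q) n g ≤ (1 / (N : ℝ)) ^ n := by
  classical
  have hN0 : (0 : ℝ) < N := by positivity
  have h0 : law d s q 0 univ ≤ 1 := by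
    rw [law_apply d s q 0 MeasurableSet.univ]
    simp
  have h1 := mu_per hN hd s q hq hq1 h0 (fun n E hE => law_succ d s hq n E hE) n g.2
  rw [law_apply d s q n (per_meas _ _)] at h1
  have h2 : ENNReal.ofReal (prob (rr N K) (tt d s) (ww N q) n g) ≤
      ENNReal.ofReal ((1 / (N : ℝ)) ^ n) := by
    refine le_trans ?_ h1
    have hnn : ∀ w : Fin n → Fin N × K, 0 ≤ ∏ k, ww N q (w k) := fun w =>
      Finset.prod_nonneg fun k _ => ww_nonneg hq _
    unfold prob
    rw [ENNReal.ofReal_sum_of_nonneg (fun w _ => by split_ifs; exacts [hnn w, le_rfl])]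
    refine Finset.sum_le_sum fun w _ => ?_
    split_ifs with hw
    · have : (aff (rr N K) (tt d s) n w).2 ∈ per N n g.2 := by
        rw [hw]
        show Int.fract (g.2 - g.2) < _
        rw [sub_self, Int.fract_zero]
        positivity
      rw [indicator_of_mem this, Pi.one_apply, mul_one]
    · simp
  exact (ENNReal.ofReal_le_ofReal_iff (by positivity)).1 h2

theorem entropy_ge (hN : 2 ≤ N) {d : Fin N → ℤ} (hd : ∀ a b, (N : ℤ) ∣ d a - d b → a = b)
    (s q : K → ℝ) (hq : ∀ j, 0 ≤ q j) (hq1 : ∑ j, q j = 1) (n : ℕ) :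
    n * Real.logb 2 N ≤ entropy (rr N K) (tt d s) (ww N q) n := by
  classical
  have hN0 : (0 : ℝ) < N := by positivity
  have hl2 : 0 < Real.log 2 := Real.log_pos (by norm_num)
  have hp0 : ∀ g, 0 ≤ prob (rr N K) (tt d s) (ww N q) n g := by
    intro g
    unfold prob
    refine Finset.sum_nonneg fun w _ => ?_
    split_ifs
    · exact Finset.prod_nonneg fun k _ => ww_nonneg hq _
    · exact le_rfl
  have hsum : ∑ g ∈ Finset.univ.image (aff (rr N K) (tt d s) n),
      prob (rr N K) (tt d s) (ww N q) n g = 1 := by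
    unfold prob
    rw [Finset.sum_comm]
    have : ∀ w : Fin n → Fin N × K, (∑ g ∈ Finset.univ.image (aff (rr N K) (tt d s) n),
        if aff (rr N K) (tt d s) n w = g then ∏ k, ww N q (w k) else 0) = ∏ k, ww N q (w k) := by
      intro w
      rw [Finset.sum_ite_eq, if_pos (Finset.mem_image_of_mem _ (Finset.mem_univ w))]
    simp only [this]
    rw [← Fintype.sum_pow, Fintype.sum_prod_type]
    have h1 : ∑ a : Fin N, ∑ j : K, ww N q (a, j) = 1 := by
      simp only [ww]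
      rw [Finset.sum_const, ← Finset.sum_div, hq1]
      simp
      field_simp
    rw [h1, one_pow]
  unfold entropy
  rw [le_div_iff₀ hl2]
  have h3 : (n : ℝ) * Real.logb 2 N * Real.log 2 = n * Real.log N := by
    rw [Real.logb]; field_simp
  rw [h3]
  calc (n : ℝ) * Real.log N = ∑ g ∈ Finset.univ.image (aff (rr N K) (tt d s) n),
        prob (rr N K) (tt d s) (ww N q) n g * (n * Real.log N) := by
        rw [← Finset.sum_mul, hsum, one_mul]
    _ ≤ _ := by
        refine Finset.sum_le_sum fun g _ => ?_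
        rw [Real.negMulLog]
        rcases (hp0 g).eq_or_lt with h4 | h4
        · rw [← h4]; simp
        · have h5 := Real.log_le_log h4 (prob_le hN hd s q hq hq1 n g)
          rw [Real.log_pow, Real.log_div one_ne_zero hN0.ne', Real.log_one, zero_sub] at h5
          nlinarith

theorem chi_eq (hN : 2 ≤ N) (q : K → ℝ) (hq1 : ∑ j, q j = 1) :
    chi (rr N K) (ww N q) = Real.logb 2 N := by
  have hN0 : (0 : ℝ) < N := by positivity
  unfold chi
  have h1 : ∀ i : Fin N × K, ww N q i * Real.logb 2 |rr N K i| = -(ww N q i * Real.logb 2 N) := by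
    intro i
    rw [rr, abs_of_pos (by positivity), one_div, Real.logb_inv]
    ring
  simp only [h1, Finset.sum_neg_distrib, neg_neg]
  rw [← Finset.sum_mul, Fintype.sum_prod_type]
  have h2 : ∑ a : Fin N, ∑ j : K, ww N q (a, j) = 1 := by
    simp only [ww]
    rw [Finset.sum_const, ← Finset.sum_div, hq1]
    simp
    field_simp
  rw [h2, one_mul]

theorem ratio_ge (hN : 2 ≤ N) {d : Fin N → ℤ} (hd : ∀ a b, (N : ℤ) ∣ d a - d b → a = b)
    (s q : K → ℝ) (hq : ∀ j, 0 ≤ q j) (hq1 : ∑ j, q j = 1) :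
    1 ≤ hRW (rr N K) (tt d s) (ww N q) / chi (rr N K) (ww N q) := by
  have hN0 : (0 : ℝ) < N := by positivity
  have hpos : 0 < Real.logb 2 N := Real.logb_pos (by norm_num) (by exact_mod_cast (by omega : 1 < N))
  rw [chi_eq hN q hq1, le_div_iff₀ hpos, one_mul]
  unfold hRW
  refine le_ciInf fun n => ?_
  have := entropy_ge hN hd s q hq hq1 (n + 1)
  push_cast at this
  rw [le_div_iff₀ (by positivity)]
  linarith

end Vale.Agent.P114
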